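/-
Helper44 — S0175 project, package CV: generic change of variables for smooth densities
(`Spec.cov_density` of Crest/Agent/Helper32/GeomSpec.lean, verbatim).

If `f` is smooth on the open set `A'` with a smooth left inverse `ψ`, and `ρ₁ ≥ 0` is a smooth
compactly supported density with smooth square root and `tsupport ρ₁ ⊆ A'`, then the image
measure of `ρ₁ dx` under `f` has a smooth compactly supported density `ρ₂ ≥ 0` with smooth square
root, supported in `f '' support ρ₁`.
-/
import Crest.Agent.Helper32.GeomDefs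
import Crest.Agent.Helper44.CoV.PushFun
import Crest.Agent.Helper44.CoV.Det
import Crest.Agent.Helper44.CoV.MapDensity

set_option autoImplicit false
open MeasureTheory Set Filter Topology
open scoped ENNReal ContDiff
open Crest.AnalysisR.OT

namespace Crest.Agent.Helper44

theorem cov_density {V : Type*} [NormedAddCommGroup V] [NormedSpace ℝ V] [FiniteDimensional ℝ V]
    [MeasureSpace V] [BorelSpace V] [(volume : Measure V).IsAddHaarMeasure]
    (f ψ : V → V) (A' : Set V) (hA' : IsOpen A') (hf : Measurable f)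
    (hfs : ContDiffOn ℝ ∞ f A') (hψ : ∀ x ∈ A', ContDiffAt ℝ ∞ ψ (f x))
    (hinv : ∀ x ∈ A', ψ (f x) = x)
    (ρ₁ : V → ℝ) (h0 : ∀ x, 0 ≤ ρ₁ x) (hsm : ContDiff ℝ ∞ ρ₁)
    (hsq : ContDiff ℝ ∞ (fun x => Real.sqrt (ρ₁ x))) (hcs : HasCompactSupport ρ₁)
    (hsub : tsupport ρ₁ ⊆ A') :
    ∃ ρ₂ : V → ℝ, (∀ y, 0 ≤ ρ₂ y) ∧ ContDiff ℝ ∞ ρ₂ ∧
      ContDiff ℝ ∞ (fun y => Real.sqrt (ρ₂ y)) ∧ HasCompactSupport ρ₂ ∧
      Function.support ρ₂ ⊆ f '' (Function.support ρ₁) ∧
      (measOfDensity ρ₁).map f = measOfDensity ρ₂ := by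
  have : CompleteSpace V := FiniteDimensional.complete ℝ V
  -- basic facts about `f` on `A'`
  have hfat : ∀ p ∈ A', ContDiffAt ℝ ∞ f p := fun p hp => hfs.contDiffAt (hA'.mem_nhds hp)
  have hfd : ∀ p ∈ A', DifferentiableAt ℝ f p := fun p hp =>
    (hfat p hp).differentiableAt (by simp)
  have hinj : InjOn f A' := by
    intro p hp p' hp' h
    rw [← hinv p hp, ← hinv p' hp', h]
  -- the derivative of `f` is injective (chain rule on `ψ ∘ f = id`)
  have hdinj : ∀ p ∈ A', ∀ v, fderiv ℝ f p v = 0 → v = 0 := by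
    intro p hp v hv
    have hψd : DifferentiableAt ℝ ψ (f p) := (hψ p hp).differentiableAt (by simp)
    have hcomp : HasFDerivAt (ψ ∘ f) ((fderiv ℝ ψ (f p)).comp (fderiv ℝ f p)) p :=
      hψd.hasFDerivAt.comp p (hfd p hp).hasFDerivAt
    have hid : HasFDerivAt (ψ ∘ f) (ContinuousLinearMap.id ℝ V) p := by
      refine (hasFDerivAt_id p).congr_of_eventuallyEq ?_
      filter_upwards [hA'.mem_nhds hp] with q hq
      simp [hinv q hq]
    have heq := hcomp.unique hid
    have : (fderiv ℝ ψ (f p)) (fderiv ℝ f p v) = v := by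
      have := congrArg (fun L : V →L[ℝ] V => L v) heq
      simpa using this
    rw [← this, hv, map_zero]
  have hdet : ∀ p ∈ A', (fderiv ℝ f p).det ≠ 0 := fun p hp =>
    clm_det_ne_zero_of_injective (hdinj p hp)
  -- the square root of the transported density, in the source coordinates
  set G₁ : V → ℝ := fun p => Real.sqrt (ρ₁ p) / Real.sqrt |(fderiv ℝ f p).det| with hG₁
  have hG₁0 : ∀ p, 0 ≤ G₁ p := fun p => div_nonneg (Real.sqrt_nonneg _) (Real.sqrt_nonneg _)
  have hG₁s : ∀ p ∈ A', ContDiffAt ℝ ∞ G₁ p := by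
    intro p hp
    have hj : ContDiffAt ℝ ∞ (fun q => (fderiv ℝ f q).det) p := contDiffAt_det_fderiv (hfat p hp)
    have hj0 := hdet p hp
    have h1 : ContDiffAt ℝ ∞ (fun q => Real.sqrt |(fderiv ℝ f q).det|) p :=
      (hj.abs hj0).sqrt (abs_ne_zero.2 hj0)
    have h3 : Real.sqrt |(fderiv ℝ f p).det| ≠ 0 := (Real.sqrt_pos.2 (abs_pos.2 hj0)).ne'
    exact hsq.contDiffAt.div h1 h3
  have hfib : ∀ p ∈ A', ∀ p' ∈ A', f p = f p' → G₁ p = G₁ p' := by
    intro p hp p' hp' h
    rw [hinj hp hp' h]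
  have hG₁ne : ∀ p, G₁ p ≠ 0 → ρ₁ p ≠ 0 := by
    intro p hne h0'
    apply hne
    simp [hG₁, h0']
  have hsuppK : ∀ p ∈ A', G₁ p ≠ 0 → f p ∈ f '' tsupport ρ₁ := fun p _ hne =>
    ⟨p, subset_tsupport _ (hG₁ne p hne), rfl⟩
  have hsuppS : ∀ p ∈ A', G₁ p ≠ 0 → f p ∈ f '' Function.support ρ₁ := fun p _ hne =>
    ⟨p, hG₁ne p hne, rfl⟩
  obtain ⟨hsmooth, hcompact⟩ := contDiff_pushFun (Φ := f) (V := A') (G := G₁) hA' hfat
    (fun p hp => exists_equiv_of_det_ne_zero (hfd p hp) (hdet p hp)) hG₁s hfib hcs.isCompact hsub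
    hsuppK
  have hpos : ∀ y, 0 ≤ pushFun f A' G₁ y := pushFun_nonneg (fun p _ => hG₁0 p)
  refine ⟨fun y => pushFun f A' G₁ y ^ 2, fun y => sq_nonneg _, hsmooth.pow 2, ?_, ?_, ?_, ?_⟩
  · have : (fun y => Real.sqrt (pushFun f A' G₁ y ^ 2)) = pushFun f A' G₁ := by
      funext y
      rw [Real.sqrt_sq (hpos y)]
    rw [this]
    exact hsmooth
  · have hsupp : Function.support (fun y => pushFun f A' G₁ y ^ 2) ⊆
        Function.support (pushFun f A' G₁) := by
      intro y hy h0'
      apply hy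
      simp [h0']
    exact hcompact.mono hsupp
  · intro y hy
    apply support_pushFun_subset (Φ := f) (V := A') (G := G₁) hsuppS
    intro h0'
    apply hy
    simp [h0']
  · -- the measure identity
    have hAm : MeasurableSet A' := hA'.measurableSet
    have hL : measOfDensity ρ₁ = ((volume : Measure V).restrict A').withDensity
        (fun p => ENNReal.ofReal (|(fderiv ℝ f p).det| * G₁ p ^ 2)) := by
      unfold measOfDensity
      have hind : A'.indicator (fun x => ENNReal.ofReal (ρ₁ x)) =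
          (fun x => ENNReal.ofReal (ρ₁ x)) := by
        funext x
        by_cases hx : x ∈ A'
        · rw [Set.indicator_of_mem hx]
        · rw [Set.indicator_of_notMem hx]
          have : ρ₁ x = 0 := by
            by_contra hne
            exact hx (hsub (subset_tsupport _ hne))
          simp [this]
      conv_lhs => rw [← hind]
      rw [withDensity_indicator hAm]
      apply withDensity_congr_ae
      refine (ae_restrict_iff' hAm).2 (Eventually.of_forall ?_)
      intro p hp
      have hj0 := hdet p hp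
      have hpos' : 0 < |(fderiv ℝ f p).det| := abs_pos.2 hj0
      show ENNReal.ofReal (ρ₁ p) = ENNReal.ofReal (|(fderiv ℝ f p).det| * G₁ p ^ 2)
      congr 1
      simp only [hG₁]
      rw [div_pow, Real.sq_sqrt hpos'.le, Real.sq_sqrt (h0 p)]
      field_simp
    have hmain := map_withDensity_pushFun (μ := (volume : Measure V)) (Φ := f)
      (Φ' := fun p => fderiv ℝ f p) (V := A') (V₀ := A') (G := fun p => G₁ p ^ 2) hAm
      subset_rfl subset_rfl (fun p hp => (hfd p hp).hasFDerivAt.hasFDerivWithinAt) hinj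
      (fun p hp p' hp' h => by show G₁ p ^ 2 = G₁ p' ^ 2; rw [hfib p hp p' hp' h])
    rw [hL, hmain]
    unfold measOfDensity
    congr 1
    funext y
    rw [pushFun_sq]

end Crest.Agent.Helper44
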