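/-
Helper44 — S0175 project, help for package SH-b: existence of admissible parameters
(`Spec.exists_goodParams`), from the positivity of the squared height `shH` on `(wMin s, 1/√2)`
(package SH-a: `shH_pos`).
-/
import Crest.Agent.Helper32.GeomDefs

set_option autoImplicit false
open Set
open Crest.Agent.Helper32

namespace Crest.Agent.Helper44

theorem wMin_sq (s : ℝ) : wMin s ^ 2 = 1 / ((2:ℝ) ^ (s + 2) + 2) := by
  unfold wMin
  rw [Real.sq_sqrt]
  have : (0:ℝ) < (2:ℝ) ^ (s + 2) := Real.rpow_pos_of_pos (by norm_num) _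
  positivity

theorem wMin_pos' (s : ℝ) : 0 < wMin s := by
  unfold wMin
  have : (0:ℝ) < (2:ℝ) ^ (s + 2) := Real.rpow_pos_of_pos (by norm_num) _
  apply Real.sqrt_pos.2
  positivity

theorem wMin_lt' (s : ℝ) : 2 * wMin s ^ 2 < 1 := by
  rw [wMin_sq]
  have h : (0:ℝ) < (2:ℝ) ^ (s + 2) := Real.rpow_pos_of_pos (by norm_num) _
  rw [mul_one_div, div_lt_one (by positivity)]
  linarith

/-- Existence of admissible parameters, given positivity of `shH` above `wMin`. -/
theorem exists_goodParams_of (s : ℝ) (hs : 0 < s)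
    (hH : ∀ w, wMin s < w → 2 * w ^ 2 < 1 → 0 < shH s w) :
    ∃ w2 ε : ℝ, GoodParams s w2 ε := by
  have hm0 := wMin_pos' s
  have hm1 := wMin_lt' s
  -- the shape `w2`
  set w2 : ℝ := Real.sqrt ((wMin s ^ 2 + 1 / 2) / 2) with hw2def
  have hw2sq : w2 ^ 2 = (wMin s ^ 2 + 1 / 2) / 2 := by
    rw [hw2def, Real.sq_sqrt]
    positivity
  have hw2 : wMin s < w2 := by
    rw [hw2def]
    apply Real.lt_sqrt_of_sq_lt
    linarith
  have hw2' : 2 * w2 ^ 2 < 1 := by rw [hw2sq]; linarith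
  have hw2pos : 0 < w2 := lt_trans hm0 hw2
  have hHpos : 0 < shH s w2 := hH w2 hw2 hw2'
  -- the constants
  set K : ℝ := 3 / (4 * w2 ^ 4) + 4 / (2 * w2 ^ 2 + 1) ^ 2 with hK
  have hKpos : 0 < K := by rw [hK]; positivity
  set M : ℝ := 9 * (1 + s / 2) with hM
  have hMpos : 0 < M := by rw [hM]; positivity
  set δ : ℝ := M ^ (-(1 / s)) with hδ
  have hδpos : 0 < δ := Real.rpow_pos_of_pos hMpos _
  have hδs : δ ^ (-s) = M := by
    rw [hδ, ← Real.rpow_mul hMpos.le]
    have : -(1 / s) * -s = 1 := by field_simp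
    rw [this, Real.rpow_one]
  set ε : ℝ := min (1 / 16) (min (shH s w2 / (2 * K)) (δ ^ 2 / 72)) with hε
  have hε0 : 0 < ε := by
    rw [hε]
    refine lt_min (by norm_num) (lt_min (by positivity) (by positivity))
  have hε1 : ε ≤ 1 / 16 := min_le_left _ _
  have hε2 : ε ≤ shH s w2 / (2 * K) := le_trans (min_le_right _ _) (min_le_left _ _)
  have hε3 : ε ≤ δ ^ 2 / 72 := le_trans (min_le_right _ _) (min_le_right _ _)
  refine ⟨w2, ε, hs, hw2, hw2', hε0, hε1, ?_, ?_⟩
  · -- hdom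
    have hsq : ε ^ 2 ≤ ε := by nlinarith
    have h1 : 3 * ε / (4 * w2 ^ 4) + 4 * ε ^ 2 / (2 * w2 ^ 2 + 1) ^ 2 ≤ ε * K := by
      have e1 : 3 * ε / (4 * w2 ^ 4) = ε * (3 / (4 * w2 ^ 4)) := by ring
      have e2 : 4 * ε ^ 2 / (2 * w2 ^ 2 + 1) ^ 2 ≤ ε * (4 / (2 * w2 ^ 2 + 1) ^ 2) := by
        have hpos : (0:ℝ) < (2 * w2 ^ 2 + 1) ^ 2 := by positivity
        rw [div_le_iff₀ hpos]
        have : ε * (4 / (2 * w2 ^ 2 + 1) ^ 2) * (2 * w2 ^ 2 + 1) ^ 2 = 4 * ε := by
          field_simp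
        rw [this]
        linarith
      rw [hK, mul_add, e1]
      linarith
    have h2 : ε * K ≤ shH s w2 / 2 := by
      have := mul_le_mul_of_nonneg_right hε2 hKpos.le
      have e : shH s w2 / (2 * K) * K = shH s w2 / 2 := by field_simp
      rw [e] at this
      exact this
    linarith
  · -- hdiam
    have hsqε : 0 ≤ Real.sqrt ε := Real.sqrt_nonneg _
    have hsq1 : Real.sqrt ε ^ 2 = ε := Real.sq_sqrt hε0.le
    have h3 : Real.sqrt (3 * ε) ≤ 2 * Real.sqrt ε := by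
      rw [Real.sqrt_le_iff]
      refine ⟨by positivity, ?_⟩
      rw [mul_pow, hsq1]
      linarith
    have h4 : ε ≤ Real.sqrt ε := by
      have : ε ^ 2 ≤ ε := by nlinarith
      exact Real.le_sqrt_of_sq_le this
    have h5 : Real.sqrt ε < δ / 6 := by
      rw [Real.sqrt_lt' (by positivity)]
      have : (δ / 6) ^ 2 = δ ^ 2 / 36 := by ring
      rw [this]
      have : (0:ℝ) < δ ^ 2 := by positivity
      linarith
    have hx0 : 0 < 2 * Real.sqrt (3 * ε) + 2 * ε := by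
      have : 0 ≤ Real.sqrt (3 * ε) := Real.sqrt_nonneg _
      linarith
    have hxδ : 2 * Real.sqrt (3 * ε) + 2 * ε < δ := by linarith
    have := Real.rpow_lt_rpow_of_neg hx0 hxδ (neg_lt_zero.2 hs)
    rw [hδs] at this
    exact this

end Crest.Agent.Helper44
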