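/-
Helper44 — S0175 project, package SH-b (backup track), core.

With `a = 1/(s+2)`, `A = shL23 s w`, `B = shL12 s w`, `P = shP w`, `H = shH s w = B² - A²/4`:
  `deriv (shb s) w = -2 a w A² - 8 (1 - a) w P H`   (exact identity, `0 < w`, `2 w² < 1`).
Hence `shb` has negative derivative, is strictly decreasing and is `≥ 1/4` wherever `shH ≥ 0`,
i.e. on `[wMin s, 1/√2)`.  The only input from SH-a is `0 ≤ shH s w` there.
-/
import Crest.Agent.Helper32.GeomDefs

set_option autoImplicit false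
open Set
open Crest.Agent.Helper32

namespace Crest.Agent.Helper44

section SHb

variable (s : ℝ) (w : ℝ)

theorem shP_pos_of (hw' : 2 * w ^ 2 < 1) : 0 < shP w := by
  unfold shP
  linarith

theorem hasDerivAt_shP : HasDerivAt shP (-4 * w) w := by
  have h2 : HasDerivAt shP (0 - 2 * ((2:ℕ) * w ^ (2 - 1) * 1)) w :=
    (hasDerivAt_const w (1:ℝ)).sub (((hasDerivAt_id' w).pow 2).const_mul (2:ℝ))
  exact h2.congr_deriv (by simp; ring)

theorem shL23_pos_of (hw : 0 < w) : 0 < shL23 s w := Real.rpow_pos_of_pos hw _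

theorem shL12_pos_of (hw' : 2 * w ^ 2 < 1) : 0 < shL12 s w :=
  Real.rpow_pos_of_pos (shP_pos_of w hw') _

theorem hasDerivAt_shL23 (hw : 0 < w) :
    HasDerivAt (shL23 s) (-(2 / (s + 2)) * (shL23 s w / w)) w := by
  have h := Real.hasDerivAt_rpow_const (x := w) (p := -(2 / (s + 2))) (Or.inl hw.ne')
  rw [Real.rpow_sub_one hw.ne'] at h
  exact h

theorem hasDerivAt_shL12 (hw' : 2 * w ^ 2 < 1) :
    HasDerivAt (shL12 s) (4 * w * (1 / (s + 2)) * (shL12 s w / shP w)) w := by
  have hP := shP_pos_of w hw'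
  have h := (hasDerivAt_shP w).rpow_const (p := -(1 / (s + 2))) (Or.inl hP.ne')
  rw [Real.rpow_sub_one hP.ne'] at h
  have h' : HasDerivAt (shL12 s)
      (-4 * w * -(1 / (s + 2)) * (shP w ^ (-(1 / (s + 2))) / shP w)) w := h
  exact h'.congr_deriv (by unfold shL12; ring)

theorem hasDerivAt_shH (hw : 0 < w) (hw' : 2 * w ^ 2 < 1) :
    HasDerivAt (shH s)
      (2 * shL12 s w * (4 * w * (1 / (s + 2)) * (shL12 s w / shP w)) -
        2 * shL23 s w * (-(2 / (s + 2)) * (shL23 s w / w)) / 4) w := by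
  have hA := hasDerivAt_shL23 s w hw
  have hB := hasDerivAt_shL12 s w hw'
  have h : HasDerivAt (shH s)
      (((2:ℕ) : ℝ) * shL12 s w ^ (2 - 1) * (4 * w * (1 / (s + 2)) * (shL12 s w / shP w)) -
        ((2:ℕ) : ℝ) * shL23 s w ^ (2 - 1) * (-(2 / (s + 2)) * (shL23 s w / w)) / 4) w :=
    (hB.pow 2).sub ((hA.pow 2).div_const 4)
  exact h.congr_deriv (by simp)

/-- the exact derivative of `shb` -/
theorem hasDerivAt_shb (hw : 0 < w) (hw' : 2 * w ^ 2 < 1) :
    HasDerivAt (shb s)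
      (-(2 / (s + 2)) * w * shL23 s w ^ 2 - 8 * (1 - 1 / (s + 2)) * w * shP w * shH s w) w := by
  have hP := shP_pos_of w hw'
  have hA := hasDerivAt_shL23 s w hw
  have hH := hasDerivAt_shH s w hw hw'
  have h : HasDerivAt (shb s)
      (((2:ℕ) : ℝ) * shL23 s w ^ (2 - 1) * (-(2 / (s + 2)) * (shL23 s w / w)) / 4 +
        (((2:ℕ) : ℝ) * shP w ^ (2 - 1) * (-4 * w) * shH s w +
          shP w ^ 2 * (2 * shL12 s w * (4 * w * (1 / (s + 2)) * (shL12 s w / shP w)) -
            2 * shL23 s w * (-(2 / (s + 2)) * (shL23 s w / w)) / 4))) w :=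
    ((hA.pow 2).div_const 4).add (((hasDerivAt_shP w).pow 2).mul hH)
  refine h.congr_deriv ?_
  have hH' : shH s w = shL12 s w ^ 2 - shL23 s w ^ 2 / 4 := rfl
  have hPw : w ^ 2 = (1 - shP w) / 2 := by unfold shP; ring
  have hw0 : w ≠ 0 := hw.ne'
  have hP0 : shP w ≠ 0 := hP.ne'
  have hs2 : s + 2 ≠ 0 ∨ True := Or.inr trivial
  simp only [Nat.cast_ofNat, Nat.add_one_sub_one, pow_one]
  rw [hH']
  generalize shL12 s w = B
  generalize shL23 s w = A
  generalize hPdef : shP w = P at hPw hP0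
  by_cases hs0 : s + 2 = 0
  · simp only [hs0, div_zero, neg_zero, zero_mul, mul_zero, zero_div, sub_zero, zero_add,
      zero_sub]
    field_simp
    ring
  · field_simp
    have e1 : w ^ 2 = (1 - P) / 2 := hPw
    have e2 : w ^ 3 = w * ((1 - P) / 2) := by rw [← e1]; ring
    ring_nf
    rw [e1] at *
    ring

theorem deriv_shb (hw : 0 < w) (hw' : 2 * w ^ 2 < 1) :
    deriv (shb s) w =
      -(2 / (s + 2)) * w * shL23 s w ^ 2 - 8 * (1 - 1 / (s + 2)) * w * shP w * shH s w :=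
  (hasDerivAt_shb s w hw hw').deriv

/-- negative derivative wherever the squared height is nonnegative -/
theorem shb_deriv_neg_of (hs : 0 < s) (hw : 0 < w) (hw' : 2 * w ^ 2 < 1)
    (hH : 0 ≤ shH s w) : deriv (shb s) w < 0 := by
  rw [deriv_shb s w hw hw']
  have hP := shP_pos_of w hw'
  have hA := shL23_pos_of s w hw
  have ha : 0 < 2 / (s + 2) := by positivity
  have ha1 : 0 < 1 - 1 / (s + 2) := by
    rw [sub_pos, div_lt_one (by linarith)]
    linarith
  have h1 : 0 < 2 / (s + 2) * w * shL23 s w ^ 2 := by positivity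
  have h2 : 0 ≤ 8 * (1 - 1 / (s + 2)) * w * shP w * shH s w := by positivity
  linarith

theorem shL23_ge_one_of (hs : 0 < s) (hw : 0 < w) (hw' : 2 * w ^ 2 < 1) : 1 ≤ shL23 s w := by
  unfold shL23
  have hw1 : w ≤ 1 := by nlinarith
  have : 0 ≤ 2 / (s + 2) := by positivity
  exact Real.one_le_rpow_of_pos_of_le_one_of_nonpos hw hw1 (by linarith)

/-- `shb ≥ 1/4` wherever the squared height is nonnegative -/
theorem shb_ge_of (hs : 0 < s) (hw : 0 < w) (hw' : 2 * w ^ 2 < 1) (hH : 0 ≤ shH s w) :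
    1 / 4 ≤ shb s w := by
  unfold shb
  have h1 := shL23_ge_one_of s w hs hw hw'
  have h2 : 0 ≤ shP w ^ 2 * shH s w := by positivity
  nlinarith

end SHb

/-- strict monotonicity on an interval where the squared height is nonnegative -/
theorem shb_strictAnti_of (s : ℝ) (hs : 0 < s) (w w' : ℝ) (hw : 0 < w) (hww' : w < w')
    (hw' : 2 * w' ^ 2 < 1) (hH : ∀ x, w ≤ x → x ≤ w' → 0 ≤ shH s x) :
    shb s w' < shb s w := by
  have hmem : ∀ x ∈ Icc w w', 0 < x ∧ 2 * x ^ 2 < 1 := by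
    intro x hx
    have hx0 : 0 < x := lt_of_lt_of_le hw hx.1
    refine ⟨hx0, ?_⟩
    have : x ^ 2 ≤ w' ^ 2 := by
      have := hx.2
      nlinarith
    linarith
  have hcont : ContinuousOn (shb s) (Icc w w') := fun x hx =>
    (hasDerivAt_shb s x (hmem x hx).1 (hmem x hx).2).continuousAt.continuousWithinAt
  have hder : ∀ x ∈ interior (Icc w w'), deriv (shb s) x < 0 := by
    intro x hx
    have hx' : x ∈ Icc w w' := interior_subset hx
    exact shb_deriv_neg_of s x hs (hmem x hx').1 (hmem x hx').2 (hH x hx'.1 hx'.2)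
  have hanti := strictAntiOn_of_deriv_neg (convex_Icc w w') hcont hder
  exact hanti (left_mem_Icc.2 hww'.le) (right_mem_Icc.2 hww'.le) hww'

end Crest.Agent.Helper44
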