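/-
Helper44 — S0175 project, package SH-b (backup track), Spec-verbatim statements:
`shb_strictAnti`, `shb_deriv_neg`, `shb_ge`, `exists_goodParams`
(`Crest.Agent.Helper32.Spec` in Crest/Agent/Helper32/GeomSpec.lean).
Self-contained: the sign of the squared height `shH` on `[wMin s, 1/√2)` is proved here.
-/
import Crest.Agent.Helper32.GeomDefs
import Crest.Agent.Helper44.Geom.GoodParams
import Crest.Agent.Helper44.Geom.SHbCore

set_option autoImplicit false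
set_option linter.unusedSectionVars false
open Set
open Crest.Agent.Helper32

namespace Crest.Agent.Helper44

section Height

variable (s : ℝ) (hs : 0 < s) (w : ℝ) (hw' : 2 * w ^ 2 < 1)
include hs hw'

/-- `shL23 = ((w²)⁻¹)^(1/(s+2))` -/
theorem shL23_eq_rpow (hw : 0 < w) : shL23 s w = ((w ^ 2)⁻¹) ^ (1 / (s + 2)) := by
  unfold shL23
  have h1 : (w ^ 2)⁻¹ = w ^ (-2 : ℝ) := by
    rw [Real.rpow_neg hw.le, Real.rpow_two]
  rw [h1, ← Real.rpow_mul hw.le]
  congr 1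
  ring

/-- `2 * shL12 = (2^(s+2) / P)^(1/(s+2))` -/
theorem two_shL12_eq_rpow : 2 * shL12 s w = ((2:ℝ) ^ (s + 2) * (shP w)⁻¹) ^ (1 / (s + 2)) := by
  have hP := shP_pos_of w hw'
  have h2 : (0:ℝ) ≤ (2:ℝ) ^ (s + 2) := (Real.rpow_pos_of_pos (by norm_num) _).le
  rw [Real.mul_rpow h2 (inv_nonneg.2 hP.le), ← Real.rpow_mul (by norm_num : (0:ℝ) ≤ 2)]
  have e : (s + 2) * (1 / (s + 2)) = 1 := by
    have : s + 2 ≠ 0 := by linarith
    field_simp
  rw [e, Real.rpow_one, Real.inv_rpow hP.le]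
  unfold shL12
  rw [Real.rpow_neg hP.le]

theorem inv_sq_le_of_wMin_le (hw : wMin s ≤ w) :
    (w ^ 2)⁻¹ ≤ (2:ℝ) ^ (s + 2) * (shP w)⁻¹ := by
  have hw0 : 0 < w := lt_of_lt_of_le (wMin_pos' s) hw
  have hP := shP_pos_of w hw'
  have h2 : (0:ℝ) < (2:ℝ) ^ (s + 2) := Real.rpow_pos_of_pos (by norm_num) _
  have hsq : wMin s ^ 2 ≤ w ^ 2 := by
    have := wMin_pos' s
    nlinarith
  rw [wMin_sq, div_le_iff₀ (by positivity)] at hsq
  rw [← div_eq_mul_inv, inv_eq_one_div, div_le_div_iff₀ (by positivity) hP]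
  unfold shP
  nlinarith

theorem inv_sq_lt_of_wMin_lt (hw : wMin s < w) :
    (w ^ 2)⁻¹ < (2:ℝ) ^ (s + 2) * (shP w)⁻¹ := by
  have hw0 : 0 < w := lt_trans (wMin_pos' s) hw
  have hP := shP_pos_of w hw'
  have h2 : (0:ℝ) < (2:ℝ) ^ (s + 2) := Real.rpow_pos_of_pos (by norm_num) _
  have hsq : wMin s ^ 2 < w ^ 2 := by
    have := wMin_pos' s
    nlinarith
  rw [wMin_sq, div_lt_iff₀ (by positivity)] at hsq
  rw [← div_eq_mul_inv, inv_eq_one_div, div_lt_div_iff₀ (by positivity) hP]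
  unfold shP
  nlinarith

theorem shH_nonneg' (hw : wMin s ≤ w) : 0 ≤ shH s w := by
  have hw0 : 0 < w := lt_of_lt_of_le (wMin_pos' s) hw
  have hA := shL23_pos_of s w hw0
  have hle : shL23 s w ≤ 2 * shL12 s w := by
    rw [shL23_eq_rpow s hs w hw' hw0, two_shL12_eq_rpow s hs w hw']
    exact Real.rpow_le_rpow (by positivity) (inv_sq_le_of_wMin_le s hs w hw' hw) (by positivity)
  unfold shH
  nlinarith

theorem shH_pos' (hw : wMin s < w) : 0 < shH s w := by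
  have hw0 : 0 < w := lt_trans (wMin_pos' s) hw
  have hA := shL23_pos_of s w hw0
  have hlt : shL23 s w < 2 * shL12 s w := by
    rw [shL23_eq_rpow s hs w hw' hw0, two_shL12_eq_rpow s hs w hw']
    exact Real.rpow_lt_rpow (by positivity) (inv_sq_lt_of_wMin_lt s hs w hw' hw) (by positivity)
  unfold shH
  nlinarith

end Height

/-! ### the Spec statements -/

theorem shb_strictAnti (s : ℝ) (hs : 0 < s) (w w' : ℝ) (hw : wMin s ≤ w) (hww' : w < w')
    (hw' : 2 * w' ^ 2 < 1) : shb s w' < shb s w := by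
  have hw0 : 0 < w := lt_of_lt_of_le (wMin_pos' s) hw
  refine shb_strictAnti_of s hs w w' hw0 hww' hw' ?_
  intro x hx hx'
  have hx0 : 0 < x := lt_of_lt_of_le hw0 hx
  have hx2 : 2 * x ^ 2 < 1 := by nlinarith
  exact shH_nonneg' s hs x hx2 (hw.trans hx)

theorem shb_deriv_neg (s : ℝ) (hs : 0 < s) (w : ℝ) (hw : wMin s ≤ w) (hw' : 2 * w ^ 2 < 1) :
    deriv (shb s) w < 0 :=
  shb_deriv_neg_of s w hs (lt_of_lt_of_le (wMin_pos' s) hw) hw' (shH_nonneg' s hs w hw' hw)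

theorem shb_ge (s : ℝ) (hs : 0 < s) (w : ℝ) (hw : wMin s ≤ w) (hw' : 2 * w ^ 2 < 1) :
    1 / 4 ≤ shb s w :=
  shb_ge_of s w hs (lt_of_lt_of_le (wMin_pos' s) hw) hw' (shH_nonneg' s hs w hw' hw)

theorem exists_goodParams (s : ℝ) (hs : 0 < s) : ∃ w2 ε : ℝ, GoodParams s w2 ε :=
  exists_goodParams_of s hs (fun w hw hw' => shH_pos' s hs w hw' hw)

end Crest.Agent.Helper44
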